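import Mathlib
import Vale.Agent.Lib.P134.Translate

/-!
# P134 (De Giorgi's conjecture): solutions whose level sets are vertical translates of one another

In every dimension `n + 1`, a `C^2` solution of the Allen-Cahn equation `Δ u = u^3 - u` with
`|u| ≤ 1` and positive derivative in the last coordinate direction, whose level sets are mapped
into level sets by the translations in the last coordinate direction, is one-dimensional.
-/

open InnerProductSpace Laplacian

namespace Vale.Agent.Results.P134.TranslatedLevelSets

theorem result (n : ℕ) (u : EuclideanSpace ℝ (Fin (n + 1)) → ℝ)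
    (hu : ContDiff ℝ 2 u)
    (hAC : ∀ x, Laplacian.laplacian u x = u x ^ 3 - u x)
    (hbound : ∀ x, |u x| ≤ 1)
    (hmono : ∀ x, 0 < fderiv ℝ u x (EuclideanSpace.single (Fin.last n) 1))
    (hlevel : ∀ (x y : EuclideanSpace ℝ (Fin (n + 1))) (τ : ℝ), u x = u y →
      u (x + τ • EuclideanSpace.single (Fin.last n) 1) =
        u (y + τ • EuclideanSpace.single (Fin.last n) 1)) :
    ∃ (e : EuclideanSpace ℝ (Fin (n + 1))) (h : ℝ → ℝ),
      ‖e‖ = 1 ∧ ∀ x, u x = h (inner ℝ e x) :=
  Vale.Agent.Lib.P134.oneDim_of_translate u (fun s => s ^ 3 - s)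
    (EuclideanSpace.single (Fin.last n) 1) hu hAC hbound hmono hlevel

end Vale.Agent.Results.P134.TranslatedLevelSets
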